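import Vale.Agent.Lib.P121.Final

open MeasureTheory

namespace Vale.Agent.Results.P121.A_main

open Vale.Agent.Lib.P121

/-- Disproof of Q1: there is an absolutely continuous Borel probability measure on `ℝ³` with
finite Kantorovich value for the three-particle Coulomb cost which admits no optimal Monge plan. -/
theorem result :
    ∃ μ : Measure E3, IsProbabilityMeasure μ ∧ μ ≪ (volume : Measure E3) ∧
      kantorovichValue μ < ⊤ ∧ ¬ AdmitsOptimalMongePlan μ :=
  ⟨muC, muC_prob, muC_absCont, muC_value_lt_top, muC_no_monge⟩

end Vale.Agent.Results.P121.A_main
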